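import Vale.Agent.P252h3.SepMain
import Vale.Agent.P252h3.RadMain

open scoped ContDiff

namespace Vale.Agent.Results.P252.ARadialOrSeparable

open Vale.Agent.P252h3

/-- The components of a smooth separable function are smooth. -/
theorem components_smooth {n : ℕ} {u : EuclideanSpace ℝ (Fin n) → ℝ} (hu : ContDiff ℝ ∞ u)
    {f : Fin n → ℝ → ℝ} (h : ∀ x, u x = ∑ k, f k (x k)) (k : Fin n) : ContDiff ℝ ∞ (f k) := by
  have hline : ContDiff ℝ ∞ (fun t : ℝ => (EuclideanSpace.single k t : EuclideanSpace ℝ (Fin n))) := by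
    have h1 : (fun t : ℝ => (EuclideanSpace.single k t : EuclideanSpace ℝ (Fin n))) =
        fun t : ℝ => t • (EuclideanSpace.single k (1 : ℝ) : EuclideanSpace ℝ (Fin n)) := by
      funext t
      ext i
      by_cases hi : i = k
      · subst hi; simp
      · simp [hi]
    rw [h1]
    exact contDiff_id.smul contDiff_const
  have h2 : ∀ t, f k t = u (EuclideanSpace.single k t) - ∑ j ∈ Finset.univ.erase k, f j 0 := by
    intro t
    rw [h, ← Finset.add_sum_erase _ _ (Finset.mem_univ k)]
    have h3 : ∑ j ∈ Finset.univ.erase k, f j ((EuclideanSpace.single k t : EuclideanSpace ℝ (Fin n)) j) =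
        ∑ j ∈ Finset.univ.erase k, f j 0 := by
      refine Finset.sum_congr rfl fun j hj => ?_
      have hne : j ≠ k := Finset.ne_of_mem_erase hj
      simp [hne]
    rw [h3]
    simp
  have h4 : f k = fun t => u (EuclideanSpace.single k t) - ∑ j ∈ Finset.univ.erase k, f j 0 :=
    funext h2
  rw [h4]
  exact (hu.comp hline).sub contDiff_const

/-- Let `n ≥ 2` and let `u : ℝⁿ → ℝ` be smooth with positive definite Hessian everywhere, solving
the affine maximal equation on all of `ℝⁿ`. If `u` is radial, or if `u` is separable, i.e.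
`u x = ∑ k, f k (x k)`, then `u` is a quadratic polynomial with positive definite Hessian, so its
graph is an elliptic paraboloid. -/
theorem result (n : ℕ) (hn : 2 ≤ n) (u : EuclideanSpace ℝ (Fin n) → ℝ) (hu : ContDiff ℝ ∞ u)
    (hpd : ∀ x, (hess u x).PosDef) (ham : IsAffineMaximal u)
    (hclass : (∀ x y, ‖x‖ = ‖y‖ → u x = u y) ∨ (∃ f : Fin n → ℝ → ℝ, ∀ x, u x = ∑ k, f k (x k))) :
    ∃ (a b : Fin n → ℝ) (c : ℝ), (∀ k, 0 < a k) ∧
      ∀ x, u x = ∑ k, (a k / 2 * (x k) ^ 2 + b k * x k) + c := by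
  rcases hclass with hrad | ⟨f, hf⟩
  · obtain ⟨a, c, ha, h⟩ := radial_quadratic hn hu hrad hpd ham
    refine ⟨fun _ => a, fun _ => 0, c, fun _ => ha, fun x => ?_⟩
    rw [h x, EuclideanSpace.norm_sq_eq, Finset.mul_sum]
    congr 1
    refine Finset.sum_congr rfl fun k _ => ?_
    simp
  · have hs : ∀ k, ContDiff ℝ ∞ (f k) := components_smooth hu hf
    have hfun : u = fun x : EuclideanSpace ℝ (Fin n) => ∑ k, f k (x k) := funext hf
    subst hfun
    obtain ⟨a, b, c, ha, h⟩ := separable_quadratic hs hpd ham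
    refine ⟨a, b, ∑ k, c k, ha, fun x => ?_⟩
    rw [← Finset.sum_add_distrib]
    exact Finset.sum_congr rfl fun k _ => h k (x k)

end Vale.Agent.Results.P252.ARadialOrSeparable
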