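import Vale.Agent.P252h3.SepMain

open scoped ContDiff

namespace Vale.Agent.Results.P252.SeparableEntire

open Vale.Agent.P252h3

/-- Let `u(x) = ∑ k, f k (x k)` on `ℝⁿ` with smooth `f k`. If the Hessian of `u` is positive
definite everywhere and `u` solves the affine maximal equation on `ℝⁿ`, then `u` is a quadratic
polynomial with positive definite (diagonal) Hessian, i.e. its graph is an elliptic paraboloid. -/
theorem result (n : ℕ) (f : Fin n → ℝ → ℝ) (hf : ∀ k, ContDiff ℝ ∞ (f k))
    (u : EuclideanSpace ℝ (Fin n) → ℝ) (hu : ∀ x, u x = ∑ k, f k (x k))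
    (hpd : ∀ x, (hess u x).PosDef) (ham : IsAffineMaximal u) :
    ∃ a b c : Fin n → ℝ, (∀ k, 0 < a k) ∧
      ∀ x, u x = ∑ k, (a k / 2 * (x k) ^ 2 + b k * x k + c k) := by
  have hfun : u = fun x : EuclideanSpace ℝ (Fin n) => ∑ k, f k (x k) := funext hu
  subst hfun
  obtain ⟨a, b, c, ha, h⟩ := separable_quadratic hf hpd ham
  exact ⟨a, b, c, ha, fun x => Finset.sum_congr rfl fun k _ => h k (x k)⟩

end Vale.Agent.Results.P252.SeparableEntire
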